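import Vale.Agent.P091.T.Rel
import Vale.Agent.P091.T.H937.CoreDef

/-!
# P091, row FAMSYS, the `y`-side (helper862)

`ysF` : the `YSide` (937) of a family of sets (`Fam`, 126) on the list tree below `(j0, a0)`.
-/

set_option autoImplicit false

open Finset
open Vale.Agent.P091.Spec
open Vale.Agent.P091.T.H350 (mem_nd av_nonneg av_mono)

noncomputable section

namespace Vale.Agent.P091.T.H862

open Vale.Agent.P091.H413 (Node S Lf S_smul S_mono)
open Vale.Agent.P091.T
open Vale.Agent.P091.T.H937 (YSide A AC LC A_step AC_step A_leaf)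

/-! ## the removed mass -/

section gen
variable {n : ℕ} {D : ℝ} (Ys : YSide n D)

theorem A_nn {f : Node → ℝ} (h : ∀ y, 0 ≤ f y) (v : Node) : 0 ≤ A n f v :=
  H937.Lf_nonneg _ v h

theorem A_mono' {f g : Node → ℝ} (h : ∀ y, f y ≤ g y) (v : Node) : A n f v ≤ A n g v :=
  H937.Lf_mono _ v h

theorem G_nonneg (v : Node) : 0 ≤ Ys.G v := A_nn (fun y => Ys.nonneg v y) v

theorem S_R_le : S (n + 1) Ys.R [] ≤ 1 := by
  have key : ∀ m : ℕ, ∀ v : Node, v.length + m = n → S (m + 1) Ys.R v ≤ Ys.G' v := by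
    intro m
    induction m with
    | zero =>
      intro v _
      have h0 := G_nonneg Ys v
      show Ys.R v + (0 + 0) / 2 ≤ Ys.G' v
      unfold YSide.R
      linarith
    | succ m ih =>
      intro v hv
      have h1 := ih (true :: v) (by rw [List.length_cons]; omega)
      have h2 := ih (false :: v) (by rw [List.length_cons]; omega)
      have e1 : S (m + 1 + 1) Ys.R v
          = Ys.R v + (S (m + 1) Ys.R (true :: v) + S (m + 1) Ys.R (false :: v)) / 2 := rfl
      have e2 : Ys.G v = (A n (Ys.m v) (true :: v) + A n (Ys.m v) (false :: v)) / 2 :=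
        A_step (Ys.m v) (by omega)
      have e3 : Ys.G' (true :: v) = A n (Ys.m v) (true :: v) := rfl
      have e4 : Ys.G' (false :: v) = A n (Ys.m v) (false :: v) := rfl
      have e5 : Ys.R v = Ys.G' v - Ys.G v := rfl
      rw [e1, e5, e2]
      rw [e3] at h1
      rw [e4] at h2
      linarith
  exact (key n [] (by simp)).trans Ys.avg

end gen

/-! ## the family -/

variable {C1 D s0 : ℝ} {n b : ℕ} {ι : Type} [Fintype ι] (d : ZData C1 D n b ι)
  (j0 a0 : ℕ) (Y : Finset ℕ) (W : ℕ → ℕ → Finset ℕ)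

/-- departure set of the node `v` of the tree below `(j0, a0)` -/
def WW (v : Node) : Finset ℕ := W (j0 + v.length) (ia a0 v)

/-- arrival set -/
def AR (v : Node) : Finset ℕ := arr n j0 Y W (j0 + v.length) (ia a0 v)

/-- the normalisation -/
def B0 : ℝ := av n j0 a0 (cut d.p Y)

/-- the process is alive at `v` -/
def TT (n : ℕ) (j0 a0 : ℕ) (W : ℕ → ℕ → Finset ℕ) (v : Node) : Prop :=
  v.length ≤ n - j0 ∧ (WW j0 a0 W v).Nonempty

variable {d j0 a0 Y W}

theorem ll_pos : 0 < ll D := Nat.succ_pos _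

theorem one_le_ll : (1 : ℝ) ≤ (ll D : ℝ) := by
  exact_mod_cast (ll_pos (D := D))

theorem root_eq (v : Node) : ia a0 v / 2 ^ (j0 + v.length - j0) = a0 := by
  rw [Nat.add_sub_cancel_left]
  exact ia_root a0 v

theorem B0_pos (hF : Fam d s0 j0 a0 Y W) : 0 < B0 d j0 a0 Y :=
  (Real.exp_pos _).trans_le hF.dens

theorem cut_nonneg' (Z : Finset ℕ) (i : ℕ) : 0 ≤ cut d.p Z i := by
  unfold cut
  split_ifs
  · exact d.p_nonneg i
  · exact le_rfl

theorem cut_le_exp (Z : Finset ℕ) (i : ℕ) : cut d.p Z i ≤ Real.exp D := by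
  unfold cut
  split_ifs
  · exact d.p_le i
  · exact (Real.exp_pos _).le

theorem cut_mono' {Z Z' : Finset ℕ} (h : Z ⊆ Z') (i : ℕ) : cut d.p Z i ≤ cut d.p Z' i := by
  unfold cut
  split_ifs with h1 h2 h2
  · exact le_rfl
  · exact absurd (h h1) h2
  · exact d.p_nonneg i
  · exact le_rfl

theorem WW_sub (hF : Fam d s0 j0 a0 Y W) {v : Node} (hv : v.length ≤ n - j0) :
    WW j0 a0 W v ⊆ AR (n := n) j0 a0 Y W v := by
  have := hF.j0_le
  exact hF.W_sub _ _ (by omega) (by omega) (root_eq v)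

theorem AR_nil : AR (n := n) j0 a0 Y W [] = Y := by
  unfold AR arr
  simp

theorem AR_cons (c : Bool) (v : Node) : AR (n := n) j0 a0 Y W (c :: v)
    = WW j0 a0 W v ∩ nd n (j0 + v.length + 1) (ia a0 (c :: v)) := by
  unfold AR arr WW
  rw [List.length_cons, if_neg (by omega), ia_div_two, ← add_assoc, Nat.add_sub_cancel]

theorem WW_cons_sub (hF : Fam d s0 j0 a0 Y W) {c : Bool} {v : Node} (hv : v.length < n - j0) :
    WW j0 a0 W (c :: v) ⊆ WW j0 a0 W v := by
  intro i hi
  have h1 := WW_sub hF (v := c :: v) (by rw [List.length_cons]; omega) hi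
  rw [AR_cons] at h1
  exact (mem_inter.1 h1).1

theorem TT_cons (hF : Fam d s0 j0 a0 Y W) (c : Bool) (v : Node)
    (h : TT n j0 a0 W (c :: v)) : TT n j0 a0 W v := by
  obtain ⟨h1, i, hi⟩ := h
  rw [List.length_cons] at h1
  exact ⟨by omega, i, WW_cons_sub hF (by omega) hi⟩

theorem av_div (n j a : ℕ) (F : ℕ → ℝ) (c : ℝ) :
    av n j a (fun i => F i / c) = av n j a F / c := by
  unfold av
  rw [← Finset.sum_div, div_right_comm]

theorem av_congr' {n j a : ℕ} {F G : ℕ → ℝ} (h : ∀ i ∈ nd n j a, F i = G i) :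
    av n j a F = av n j a G := by
  unfold av
  rw [Finset.sum_congr rfl h]

/-- leaf averages of the relative tree -/
theorem A_ia (hj : j0 ≤ n) (F : ℕ → ℝ) {v : Node} (hv : v.length ≤ n - j0) :
    A (n - j0) (fun y => F (ia a0 y)) v = av n (j0 + v.length) (ia a0 v) F := by
  unfold A
  exact Lf_ia F _ (by omega)

variable (d) in
/-- the weights -/
def ym (j0 a0 : ℕ) (Y : Finset ℕ) (W : ℕ → ℕ → Finset ℕ) (v y : Node) : ℝ :=
  cut d.p (WW j0 a0 W v) (ia a0 y) / B0 d j0 a0 Y

theorem A_ym (hj : j0 ≤ n) (v : Node) {w : Node} (hw : w.length ≤ n - j0) :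
    A (n - j0) (ym d j0 a0 Y W v) w
      = av n (j0 + w.length) (ia a0 w) (cut d.p (WW j0 a0 W v)) / B0 d j0 a0 Y := by
  rw [← av_div, ← A_ia hj _ hw]
  rfl

/-- **the `y`-side of a family** -/
def ysF (hF : Fam d s0 j0 a0 Y W) : YSide (n - j0) (2 * D) where
  m := ym d j0 a0 Y W
  nonneg := fun v y => div_nonneg (cut_nonneg' _ _) (B0_pos hF).le
  le := fun y => by
    unfold ym
    rw [div_le_iff₀ (B0_pos hF)]
    have h1 : Real.exp (2 * D) * Real.exp (-D) ≤ Real.exp (2 * D) * B0 d j0 a0 Y :=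
      mul_le_mul_of_nonneg_left hF.dens (Real.exp_pos _).le
    have h2 : Real.exp (2 * D) * Real.exp (-D) = Real.exp D := by
      rw [← Real.exp_add]; congr 1; ring
    rw [h2] at h1
    exact (cut_le_exp _ _).trans h1
  rem := fun v hv c y => by
    unfold ym
    by_cases h : ia a0 y ∈ WW j0 a0 W (c :: v)
    · left
      have h2 := WW_cons_sub hF hv h
      unfold cut
      rw [if_pos h, if_pos h2]
    · right
      unfold cut
      rw [if_neg h, zero_div]
  avg := by
    have hj := hF.j0_le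
    rw [A_ym hj [] (by simp)]
    rw [div_le_one (B0_pos hF)]
    simp only [List.length_nil, add_zero, ia_nil]
    refine av_mono fun i _ => cut_mono' ?_ i
    have := WW_sub hF (v := []) (by simp)
    rwa [AR_nil] at this

theorem G_eq (hF : Fam d s0 j0 a0 Y W) {v : Node} (hv : v.length ≤ n - j0) :
    (ysF hF).G v
      = av n (j0 + v.length) (ia a0 v) (cut d.p (WW j0 a0 W v)) / B0 d j0 a0 Y :=
  A_ym hF.j0_le v hv

theorem G'_cons (hF : Fam d s0 j0 a0 Y W) {c : Bool} {v : Node} (hv : v.length < n - j0) :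
    (ysF hF).G' (c :: v)
      = av n (j0 + (c :: v).length) (ia a0 (c :: v)) (cut d.p (AR (n := n) j0 a0 Y W (c :: v)))
        / B0 d j0 a0 Y := by
  have h1 : (ysF hF).G' (c :: v) = A (n - j0) (ym d j0 a0 Y W v) (c :: v) := rfl
  rw [h1, A_ym hF.j0_le v (by rw [List.length_cons]; omega)]
  congr 1
  refine av_congr' fun i hi => ?_
  unfold cut
  rw [AR_cons]
  by_cases h : i ∈ WW j0 a0 W v
  · rw [if_pos h, if_pos (mem_inter.2 ⟨h, by rwa [List.length_cons, ← add_assoc] at hi⟩)]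
  · rw [if_neg h, if_neg fun h' => h (mem_inter.1 h').1]

/-- density at most two -/
theorem G_le_two (hF : Fam d s0 j0 a0 Y W) {v : Node} (hv : TT n j0 a0 W v) :
    (ysF hF).G v ≤ 2 := by
  have hj := hF.j0_le
  obtain ⟨h1, h2⟩ := hv
  rw [G_eq hF h1, div_le_iff₀ (B0_pos hF)]
  have h3 := hF.W_le (j0 + v.length) (ia a0 v) (by omega) (by omega) (root_eq v) h2
  refine le_trans ?_ h3
  exact av_mono fun i _ => cut_mono' (WW_sub hF h1) i

theorem loss_le (hF : Fam d s0 j0 a0 Y W) {v : Node} (hv : v.length ≤ n - j0) :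
    (ysF hF).loss v ≤ (1 + 10 * Real.log (ll D)) * (ysF hF).R v := by
  have hj := hF.j0_le
  have hl : 0 ≤ Real.log (ll D) := Real.log_nonneg one_le_ll
  rcases v with _ | ⟨c, v⟩
  · have h0 : (ysF hF).R [] = 0 := sub_self _
    unfold YSide.loss
    rw [h0]
    simp
  rw [List.length_cons] at hv
  have hv' : v.length < n - j0 := by omega
  set g := av n (j0 + (c :: v).length) (ia a0 (c :: v)) (cut d.p (WW j0 a0 W (c :: v)))
    with hg
  set g' := av n (j0 + (c :: v).length) (ia a0 (c :: v))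
    (cut d.p (AR (n := n) j0 a0 Y W (c :: v))) with hg'
  have eG : (ysF hF).G (c :: v) = g / B0 d j0 a0 Y := G_eq hF (by rw [List.length_cons]; omega)
  have eG' : (ysF hF).G' (c :: v) = g' / B0 d j0 a0 Y := G'_cons hF hv'
  have hB := B0_pos hF
  have hg0 : 0 ≤ g := av_nonneg fun i => cut_nonneg' _ i
  have hgg : g ≤ g' := av_mono fun i _ =>
    cut_mono' (WW_sub hF (by rw [List.length_cons]; omega)) i
  have eR : (ysF hF).R (c :: v) = (g' - g) / B0 d j0 a0 Y := by
    unfold YSide.R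
    rw [eG, eG', sub_div]
  have hR0 : 0 ≤ (ysF hF).R (c :: v) := by rw [eR]; exact div_nonneg (by linarith) hB.le
  unfold YSide.loss
  rcases eq_or_lt_of_le hR0 with hR | hR
  · rw [← hR]; simp
  have hlog : Real.log ((ysF hF).G' (c :: v) / (ysF hF).R (c :: v)) ≤ 10 * Real.log (ll D) := by
    have hgp : 0 < g' - g := by
      rw [eR] at hR
      exact (div_pos_iff_of_pos_right hB).1 hR
    have hq : (ysF hF).G' (c :: v) / (ysF hF).R (c :: v) = g' / (g' - g) := by
      rw [eG', eR]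
      field_simp
    rw [hq]
    have hg'p : 0 < g' := by linarith
    by_cases hne : (WW j0 a0 W (c :: v)).Nonempty
    · rcases hF.W_cut (j0 + (c :: v).length) (ia a0 (c :: v)) (by omega)
        (by rw [List.length_cons]; omega) (root_eq _) hne with h | h
      · exfalso
        have : g = g' := by
          rw [hg, hg']
          unfold WW AR
          rw [h]
        linarith
      · have h1 : g ≤ (1 - ((ll D : ℝ) ^ 10)⁻¹) * g' := h
        have hlp : (0 : ℝ) < (ll D : ℝ) ^ 10 := pow_pos (by exact_mod_cast ll_pos) _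
        have h2 : g' / (g' - g) ≤ (ll D : ℝ) ^ 10 := by
          rw [div_le_iff₀ hgp]
          have h3 : ((ll D : ℝ) ^ 10)⁻¹ * g' ≤ g' - g := by linarith
          have h4 := mul_le_mul_of_nonneg_left h3 hlp.le
          rwa [← mul_assoc, mul_inv_cancel₀ hlp.ne', one_mul] at h4
        calc Real.log (g' / (g' - g)) ≤ Real.log ((ll D : ℝ) ^ 10) :=
              Real.log_le_log (div_pos hg'p hgp) h2
          _ = 10 * Real.log (ll D) := by rw [Real.log_pow]; norm_num
    · have hg00 : g = 0 := by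
        rw [not_nonempty_iff_eq_empty] at hne
        rw [hg, hne]
        unfold av cut
        simp
      rw [hg00, sub_zero, div_self hg'p.ne', Real.log_one]
      linarith
  have h5 := mul_le_mul_of_nonneg_left hlog hR.le
  linarith

/-- **the cut entropy of the family** -/
theorem S_loss_le (hF : Fam d s0 j0 a0 Y W) :
    S (n - j0 + 1) (ysF hF).loss [] ≤ 1 + 10 * Real.log (ll D) := by
  have hl : 0 ≤ Real.log (ll D) := Real.log_nonneg one_le_ll
  have h1 : S (n - j0 + 1) (ysF hF).loss []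
      ≤ S (n - j0 + 1) (fun v => (1 + 10 * Real.log (ll D)) * (ysF hF).R v) [] := by
    refine S_mono _ _ fun w hw => loss_le hF ?_
    simp only [List.length_nil, add_zero] at hw
    omega
  rw [S_smul] at h1
  have h2 := mul_le_mul_of_nonneg_left (S_R_le (ysF hF))
    (by linarith : 0 ≤ 1 + 10 * Real.log (ll D))
  linarith

/-! ## letters -/

theorem ix_eq (y : Node) : H937.ix y = H350.ix y := by
  induction y with
  | nil => rfl
  | cons c y ih => cases c <;> simp [H937.ix, ih]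

theorem LC_eq (m : ℕ) (f : Node → ℂ) (v : Node) : LC m f v = H587.Lc m f v := by
  induction m generalizing v with
  | zero => rfl
  | succ m ih =>
    have e1 : LC (m + 1) f v = (LC m f (true :: v) + LC m f (false :: v)) / 2 := rfl
    rw [e1, ih, ih]
    rfl

/-- the phase of the root -/
def ph (n b j0 a0 : ℕ) (r : ZMod (2 ^ (n + b))) : ℂ :=
  ZMod.stdAddChar (-(r * ((a0 * 2 ^ (n - j0) : ℕ) : ZMod (2 ^ (n + b)))))

theorem norm_ph (r : ZMod (2 ^ (n + b))) : ‖ph n b j0 a0 r‖ = 1 := AddChar.norm_apply _ _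

theorem ch_ia (r : ZMod (2 ^ (n + b))) {y : Node} (hy : y.length = n - j0) :
    ch n b (-(r * (ia a0 y : ℕ))) = ph n b j0 a0 r * H937.ch (-r) y := by
  unfold ch ph H937.ch
  rw [← AddChar.map_add_eq_mul]
  congr 1
  unfold ia
  rw [hy, ix_eq]
  push_cast
  ring

theorem BZ_gen (hF : Fam d s0 j0 a0 Y W) (r : ZMod (2 ^ (n + b))) (v : Node) {w : Node}
    (hw : w.length ≤ n - j0) :
    BZ n b (cut d.p (WW j0 a0 W v)) r (j0 + w.length) (ia a0 w)
      = B0 d j0 a0 Y * (ph n b j0 a0 r *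
        AC (n - j0) (fun y => (((ysF hF).m v y : ℝ) : ℂ) * H937.ch (-r) y) w) := by
  have hj := hF.j0_le
  have hB := (B0_pos hF).ne'
  unfold BZ
  rw [← Lc_ia (j0 := j0) (a0 := a0) (v := w) _ (n - j0 - w.length) (by omega)]
  unfold AC
  rw [← mul_assoc, ← H937.LC_smul, LC_eq]
  refine H587.Lc_congr _ _ fun y hy => ?_
  have hy' : y.length = n - j0 := by omega
  rw [ch_ia r hy']
  have e1 : (((ysF hF).m v y : ℝ) : ℂ)
      = (cut d.p (WW j0 a0 W v) (ia a0 y) : ℂ) / (B0 d j0 a0 Y : ℂ) := by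
    show ((ym d j0 a0 Y W v y : ℝ) : ℂ) = _
    unfold ym
    push_cast
    rfl
  rw [e1]
  have hBc : (B0 d j0 a0 Y : ℂ) ≠ 0 := by exact_mod_cast hB
  field_simp

theorem BZ_eq (hF : Fam d s0 j0 a0 Y W) (r : ZMod (2 ^ (n + b))) {v : Node}
    (hv : v.length ≤ n - j0) :
    BZ n b (cut d.p (WW j0 a0 W v)) r (j0 + v.length) (ia a0 v)
      = B0 d j0 a0 Y * (ph n b j0 a0 r * (ysF hF).B (-r) v) := BZ_gen hF r v hv

theorem BZ'_eq (hF : Fam d s0 j0 a0 Y W) (r : ZMod (2 ^ (n + b))) {c : Bool} {v : Node}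
    (hv : v.length < n - j0) :
    BZ n b (cut d.p (WW j0 a0 W v)) r (j0 + (c :: v).length) (ia a0 (c :: v))
      = B0 d j0 a0 Y * (ph n b j0 a0 r * (ysF hF).B' (-r) c v) :=
  BZ_gen hF r v (by rw [List.length_cons]; omega)

theorem dZ_eq (hF : Fam d s0 j0 a0 Y W) (r : ZMod (2 ^ (n + b))) {v : Node}
    (hv : v.length < n - j0) :
    dZ n b (cut d.p (WW j0 a0 W v)) r (j0 + v.length) (ia a0 v)
      = B0 d j0 a0 Y * (ph n b j0 a0 r * (ysF hF).dB (-r) v) := by
  have h1 := BZ'_eq hF r (c := true) hv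
  have h2 := BZ'_eq hF r (c := false) hv
  rw [ia_true, List.length_cons, ← add_assoc] at h1
  rw [ia_false, List.length_cons, ← add_assoc] at h2
  unfold dZ YSide.dB
  rw [h1, h2]
  ring

theorem norm_BZ (hF : Fam d s0 j0 a0 Y W) (r : ZMod (2 ^ (n + b))) {v : Node}
    (hv : v.length ≤ n - j0) :
    ‖BZ n b (cut d.p (WW j0 a0 W v)) r (j0 + v.length) (ia a0 v)‖
      = B0 d j0 a0 Y * ‖(ysF hF).B (-r) v‖ := by
  rw [BZ_eq hF r hv, norm_mul, norm_mul, norm_ph, one_mul, Complex.norm_real,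
    Real.norm_of_nonneg (B0_pos hF).le]

theorem norm_BZ' (hF : Fam d s0 j0 a0 Y W) (r : ZMod (2 ^ (n + b))) {c : Bool} {v : Node}
    (hv : v.length < n - j0) :
    ‖BZ n b (cut d.p (WW j0 a0 W v)) r (j0 + (c :: v).length) (ia a0 (c :: v))‖
      = B0 d j0 a0 Y * ‖(ysF hF).B' (-r) c v‖ := by
  rw [BZ'_eq hF r hv, norm_mul, norm_mul, norm_ph, one_mul, Complex.norm_real,
    Real.norm_of_nonneg (B0_pos hF).le]

theorem norm_dZ (hF : Fam d s0 j0 a0 Y W) (r : ZMod (2 ^ (n + b))) {v : Node}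
    (hv : v.length < n - j0) :
    ‖dZ n b (cut d.p (WW j0 a0 W v)) r (j0 + v.length) (ia a0 v)‖
      = B0 d j0 a0 Y * ‖(ysF hF).dB (-r) v‖ := by
  rw [dZ_eq hF r hv, norm_mul, norm_mul, norm_ph, one_mul, Complex.norm_real,
    Real.norm_of_nonneg (B0_pos hF).le]

/-- outside `TT` everything vanishes -/
theorem BZ_dead {v : Node} (hv : v.length ≤ n - j0) (hT : ¬ TT n j0 a0 W v)
    (r : ZMod (2 ^ (n + b))) (j a : ℕ) : BZ n b (cut d.p (WW j0 a0 W v)) r j a = 0 := by
  have hne : WW j0 a0 W v = ∅ := by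
    by_contra h
    exact hT ⟨hv, nonempty_iff_ne_empty.2 h⟩
  unfold BZ avC cut
  rw [hne]
  simp

theorem dZ_dead {v : Node} (hv : v.length ≤ n - j0) (hT : ¬ TT n j0 a0 W v)
    (r : ZMod (2 ^ (n + b))) (j a : ℕ) : dZ n b (cut d.p (WW j0 a0 W v)) r j a = 0 := by
  unfold dZ
  rw [BZ_dead hv hT, BZ_dead hv hT, sub_self, zero_div]

end Vale.Agent.P091.T.H862

end
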